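import Mathlib

/-! Generic matrices supported on a relation, Hall's theorem, and a rank count. -/

namespace Vale.Agent.P038

open Finset Matrix

variable {V : Type*} [Fintype V] [DecidableEq V]

/-- The coefficient field. -/
abbrev KK (V : Type*) := FractionRing (MvPolynomial (V × V) ℤ)

/-- The generic matrix supported on `G`. -/
noncomputable def gen (G : V → Finset V) (u v : V) : KK V :=
  if v ∈ G u then algebraMap (MvPolynomial (V × V) ℤ) (KK V) (MvPolynomial.X (u, v)) else 0

omit [Fintype V] in
lemma gen_ne {G : V → Finset V} {u v : V} (h : gen G u v ≠ 0) : v ∈ G u := by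
  by_contra h'
  exact h (by simp [gen, h'])

omit [Fintype V] in
lemma gen_det (G : V → Finset V) (P : Finset V) (a b : V → V)
    (ha : Set.InjOn a P) (hb : Set.InjOn b P) (hab : ∀ p ∈ P, b p ∈ G (a p)) :
    (Matrix.of fun q p : P => gen G (a q) (b p)).det ≠ 0 := by
  classical
  set B : Matrix P P (MvPolynomial (V × V) ℤ) :=
    Matrix.of fun q p : P => if b p ∈ G (a q) then MvPolynomial.X (a q, b p) else 0 with hB
  have h1 : (Matrix.of fun q p : P => gen G (a q) (b p))
      = (algebraMap (MvPolynomial (V × V) ℤ) (KK V)).mapMatrix B := by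
    ext q p
    simp only [hB, gen, RingHom.mapMatrix_apply, Matrix.map_apply, Matrix.of_apply]
    split_ifs <;> simp
  rw [h1, ← RingHom.map_det]
  have h2 : B.det ≠ 0 := by
    intro h0
    let e : V × V → ℤ := fun c => if ∃ p ∈ P, c.1 = a p ∧ c.2 = b p then 1 else 0
    have h3 : (MvPolynomial.eval e).mapMatrix B = 1 := by
      ext q p
      simp only [hB, RingHom.mapMatrix_apply, Matrix.map_apply, Matrix.of_apply]
      by_cases hqp : q = p
      · subst hqp
        rw [if_pos (hab q q.2), MvPolynomial.eval_X, Matrix.one_apply_eq]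
        exact if_pos ⟨q, q.2, rfl, rfl⟩
      · rw [Matrix.one_apply_ne hqp]
        split_ifs with h
        · rw [MvPolynomial.eval_X]
          apply if_neg
          rintro ⟨r, hr, h4, h5⟩
          have e1 : (q : V) = r := ha q.2 hr h4
          have e2 : (p : V) = r := hb p.2 hr h5
          exact hqp (Subtype.ext (e1.trans e2.symm))
        · simp
    have h4 := (MvPolynomial.eval e).map_det B
    rw [h3, h0] at h4
    simp at h4
  intro h
  exact h2 ((IsFractionRing.injective (MvPolynomial (V × V) ℤ) (KK V)) (by rw [h]; simp))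

omit [Fintype V] in
lemma gen_vecMul (G : V → Finset V) (P : Finset V) (a b : V → V)
    (ha : Set.InjOn a P) (hb : Set.InjOn b P) (hab : ∀ p ∈ P, b p ∈ G (a p))
    (w : V → KK V) (h : ∀ p ∈ P, ∑ q ∈ P, w q * gen G (a q) (b p) = 0) :
    ∀ q ∈ P, w q = 0 := by
  have h0 := Matrix.eq_zero_of_vecMul_eq_zero (gen_det G P a b ha hb hab)
    (v := fun q : P => w q) (by
      funext p
      simp only [Matrix.vecMul, dotProduct, Matrix.of_apply, Pi.zero_apply]
      rw [← h p p.2, ← Finset.sum_coe_sort P])
  intro q hq
  exact congrFun h0 ⟨q, hq⟩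

omit [Fintype V] in
lemma gen_mulVec (G : V → Finset V) (P : Finset V) (a b : V → V)
    (ha : Set.InjOn a P) (hb : Set.InjOn b P) (hab : ∀ p ∈ P, b p ∈ G (a p))
    (w : V → KK V) (h : ∀ p ∈ P, ∑ q ∈ P, gen G (a p) (b q) * w q = 0) :
    ∀ q ∈ P, w q = 0 := by
  have h0 := Matrix.eq_zero_of_mulVec_eq_zero (gen_det G P a b ha hb hab)
    (v := fun q : P => w q) (by
      funext p
      simp only [Matrix.mulVec, dotProduct, Matrix.of_apply, Pi.zero_apply]
      rw [← h p p.2, ← Finset.sum_coe_sort P])
  intro q hq
  exact congrFun h0 ⟨q, hq⟩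

omit [Fintype V] in
lemma hall (P : Finset V) (t : V → Finset V)
    (h : ∀ Q ⊆ P, Q.card ≤ (Q.biUnion t).card) :
    ∃ μ : V → V, Set.InjOn μ P ∧ ∀ p ∈ P, μ p ∈ t p := by
  classical
  have := (Finset.all_card_le_biUnion_card_iff_exists_injective (fun p : P => t p)).1 (by
    intro s
    have h1 := h (s.map (Function.Embedding.subtype _)) (by
      intro x hx
      simp only [Finset.mem_map, Function.Embedding.coe_subtype] at hx
      obtain ⟨y, _, rfl⟩ := hx
      exact y.2)
    rw [Finset.card_map] at h1
    refine h1.trans (le_of_eq ?_)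
    congr 1
    ext x
    simp)
  obtain ⟨f, hf, hft⟩ := this
  refine ⟨fun v => if hv : v ∈ P then f ⟨v, hv⟩ else v, ?_, ?_⟩
  · intro x hx y hy hxy
    have hx' : x ∈ P := hx
    have hy' : y ∈ P := hy
    simp only [dif_pos hx', dif_pos hy'] at hxy
    exact congrArg Subtype.val (hf hxy)
  · intro p hp
    simp only [dif_pos hp]
    exact hft ⟨p, hp⟩

/-- extension by zero -/
noncomputable def ext0 {K : Type*} [Field K] (S : Finset (V × V)) (w : S → K) (a b : V) : K :=
  if h : (a, b) ∈ S then w ⟨(a, b), h⟩ else 0

lemma sum_ext0 {K : Type*} [Field K] (S : Finset (V × V)) (w : S → K) (g : V × V → K) :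
    ∑ c : S, w c * g c = ∑ a, ∑ b, ext0 S w a b * g (a, b) := by
  rw [← Finset.sum_product' , Finset.univ_product_univ]
  rw [← Finset.sum_subset (Finset.subset_univ S)
    (f := fun c : V × V => ext0 S w c.1 c.2 * g (c.1, c.2))]
  · rw [← Finset.sum_coe_sort S]
    refine Finset.sum_congr rfl fun c _ => ?_
    simp [ext0, c.2]
  · intro c _ hc
    simp [ext0, hc]

/-- The Koszul rank count. -/
lemma rank_count {K : Type*} [Field K] (M : V → V → K) (S S' J N : Finset (V × V))
    (h1 : ∀ ξ : V → V → K, (∀ a b, ξ a b ≠ 0 → (a, b) ∈ S) →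
      (∀ x u, (x, u) ∈ J → ∑ v, M x v * ξ v u = 0) →
      (∀ v y, (v, y) ∈ N → ∑ u, ξ v u * M u y = 0) → ∀ a b, ξ a b = 0)
    (h2 : ∀ ξ : V → V → K, (∀ a b, ξ a b ≠ 0 → (a, b) ∈ S') →
      (∀ x u, (u, x) ∈ J → ∑ v, M x v * ξ v u = 0) →
      (∀ v y, (y, v) ∈ N → ∑ u, ξ v u * M u y = 0) → ∀ a b, ξ a b = 0)
    (h3 : ∀ v u y x, (v, u) ∈ S → (y, x) ∈ S' → M x v ≠ 0 → M u y ≠ 0 →
      (x, u) ∈ J ∧ (v, y) ∈ N) :
    S.card + S'.card ≤ J.card + N.card := by
  classical
  let F : Matrix S (J ⊕ N) K := Matrix.of fun c m =>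
    match m with
    | Sum.inl j => if c.1.2 = j.1.2 then M j.1.1 c.1.1 else 0
    | Sum.inr b => if c.1.1 = b.1.1 then M c.1.2 b.1.2 else 0
  let H : Matrix (J ⊕ N) S' K := Matrix.of fun m c =>
    match m with
    | Sum.inl j => if c.1.2 = j.1.1 then M j.1.2 c.1.1 else 0
    | Sum.inr b => - (if c.1.1 = b.1.2 then M c.1.2 b.1.1 else 0)
  have hFH : F * H = 0 := by
    ext ⟨⟨v, u⟩, hc⟩ ⟨⟨y, x⟩, hc'⟩
    simp only [Matrix.mul_apply, Fintype.sum_sum_type, F, H, Matrix.zero_apply,
      Matrix.of_apply]
    by_cases hz : M x v ≠ 0 ∧ M u y ≠ 0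
    · obtain ⟨hJ, hN⟩ := h3 v u y x hc hc' hz.1 hz.2
      rw [Finset.sum_eq_single (⟨(x, u), hJ⟩ : J), Finset.sum_eq_single (⟨(v, y), hN⟩ : N)]
      · simp [mul_comm]
      · rintro ⟨⟨a, b⟩, hb⟩ _ hne
        by_cases e1 : v = a
        · by_cases e2 : y = b
          · subst e1 e2; exact absurd rfl hne
          · simp [e2]
        · simp [e1]
      · simp
      · rintro ⟨⟨a, b⟩, hb⟩ _ hne
        by_cases e1 : u = b
        · by_cases e2 : x = a
          · subst e1 e2; exact absurd rfl hne
          · simp [e2]
        · simp [e1]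
      · simp
    · have hz' : M x v * M u y = 0 := by
        by_contra hh
        exact hz ⟨left_ne_zero_of_mul hh, right_ne_zero_of_mul hh⟩
      rw [Finset.sum_eq_zero, Finset.sum_eq_zero, add_zero]
      · rintro ⟨⟨a, b⟩, hb⟩ _
        by_cases e1 : v = a
        · by_cases e2 : y = b
          · subst e1 e2; simp only [if_true]; linear_combination -hz'
          · simp [e2]
        · simp [e1]
      · rintro ⟨⟨a, b⟩, hb⟩ _
        by_cases e1 : u = b
        · by_cases e2 : x = a
          · subst e1 e2; simp only [if_true]; linear_combination hz'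
          · simp [e2]
        · simp [e1]
  have hr := Matrix.rank_add_rank_le_card_of_mul_eq_zero hFH
  have hF : F.rank = S.card := by
    rw [← Matrix.rank_transpose, Matrix.rank, LinearMap.finrank_range_of_inj]
    · simp
    · rw [injective_iff_map_eq_zero]
      intro w hw
      have := h1 (ext0 S w) (fun a b h => by
          by_contra h'; exact h (by simp [ext0, h']))
        (fun x u hxu => by
          have := congrFun hw (Sum.inl ⟨(x, u), hxu⟩)
          simp only [Matrix.mulVecLin_apply, Matrix.mulVec, dotProduct, Matrix.transpose_apply,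
            F, Pi.zero_apply, Matrix.of_apply] at this
          simp_rw [mul_comm _ (w _)] at this
          rw [sum_ext0 S w (fun c => if c.2 = u then M x c.1 else 0)] at this
          rw [← this]
          refine Finset.sum_congr rfl fun v _ => ?_
          simp [mul_comm])
        (fun v y hvy => by
          have := congrFun hw (Sum.inr ⟨(v, y), hvy⟩)
          simp only [Matrix.mulVecLin_apply, Matrix.mulVec, dotProduct, Matrix.transpose_apply,
            F, Pi.zero_apply, Matrix.of_apply] at this
          simp_rw [mul_comm _ (w _)] at this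
          rw [sum_ext0 S w (fun c => if c.1 = v then M c.2 y else 0)] at this
          rw [← this, Finset.sum_comm]
          refine Finset.sum_congr rfl fun u _ => ?_
          simp)
      funext c
      have h := this c.1.1 c.1.2
      simpa [ext0, c.2] using h
  have hH : H.rank = S'.card := by
    rw [Matrix.rank, LinearMap.finrank_range_of_inj]
    · simp
    · rw [injective_iff_map_eq_zero]
      intro w hw
      have := h2 (ext0 S' w) (fun a b h => by
          by_contra h'; exact h (by simp [ext0, h']))
        (fun x u hxu => by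
          have := congrFun hw (Sum.inl ⟨(u, x), hxu⟩)
          simp only [Matrix.mulVecLin_apply, Matrix.mulVec, dotProduct,
            H, Pi.zero_apply, Matrix.of_apply] at this
          simp_rw [mul_comm _ (w _)] at this
          rw [sum_ext0 S' w (fun c => if c.2 = u then M x c.1 else 0)] at this
          rw [← this]
          refine Finset.sum_congr rfl fun v _ => ?_
          simp [mul_comm])
        (fun v y hvy => by
          have := congrFun hw (Sum.inr ⟨(y, v), hvy⟩)
          simp only [Matrix.mulVecLin_apply, Matrix.mulVec, dotProduct,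
            H, Pi.zero_apply, Matrix.of_apply, neg_mul, Finset.sum_neg_distrib, neg_eq_zero] at this
          simp_rw [mul_comm _ (w _)] at this
          rw [sum_ext0 S' w (fun c => if c.1 = v then M c.2 y else 0)] at this
          rw [← this, Finset.sum_comm]
          refine Finset.sum_congr rfl fun u _ => ?_
          simp)
      funext c
      have h := this c.1.1 c.1.2
      simpa [ext0, c.2] using h
  rw [hF, hH] at hr
  simpa using hr

end Vale.Agent.P038
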