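import Vale.Agent.P038.Generic

/-! Conflict-free pairs of relations and the key inequality. -/

namespace Vale.Agent.P038

open Finset

variable {V : Type*} [Fintype V] [DecidableEq V]

/-- total size of a relation given by its rows -/
def sz (X : V → Finset V) : ℤ := ∑ z, ((X z).card : ℤ)

/-- right dilation -/
def dil (G X : V → Finset V) : V → Finset V := fun z => (X z).biUnion G

/-- off the diagonal, `X` and the transpose of `Y` are disjoint -/
def Anti (X Y : V → Finset V) : Prop := ∀ a b, b ∈ X a → a ∈ Y b → a = b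

omit [Fintype V] [DecidableEq V] in
lemma Anti.symm {X Y : V → Finset V} (h : Anti X Y) : Anti Y X :=
  fun a b h1 h2 => (h b a h2 h1).symm

omit [Fintype V] in
lemma mem_dil {G X : V → Finset V} {z y : V} : y ∈ dil G X z ↔ ∃ u ∈ X z, y ∈ G u := by
  simp [dil]

/-- the pairs in neither `X` nor the transpose of `Y` -/
def gap (X Y : V → Finset V) : Finset (V × V) :=
  univ.filter fun c => c.2 ∉ X c.1 ∧ c.1 ∉ Y c.2

lemma mem_gap {X Y : V → Finset V} {a b : V} : (a, b) ∈ gap X Y ↔ b ∉ X a ∧ a ∉ Y b := by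
  simp [gap]

lemma card_gap (X Y : V → Finset V) (hX : ∀ z, z ∈ X z) (hY : ∀ z, z ∈ Y z) (h : Anti X Y) :
    ((gap X Y).card : ℤ) + sz X + sz Y
      = (Fintype.card V : ℤ) ^ 2 + Fintype.card V := by
  have e1 : ((gap X Y).card : ℤ) = ∑ a, ∑ b, if b ∉ X a ∧ a ∉ Y b then (1 : ℤ) else 0 := by
    rw [gap, Finset.card_filter, ← Finset.univ_product_univ]
    push_cast
    rw [Finset.sum_product]
  have e2 : sz X = ∑ a, ∑ b, if b ∈ X a then (1 : ℤ) else 0 := by
    simp [sz]
  have e3 : sz Y = ∑ a, ∑ b, if a ∈ Y b then (1 : ℤ) else 0 := by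
    rw [Finset.sum_comm]; simp [sz]
  have e4 : (Fintype.card V : ℤ) ^ 2 + Fintype.card V
      = ∑ a : V, ∑ b : V, (1 + if a = b then (1 : ℤ) else 0) := by
    simp [Finset.sum_add_distrib]; ring
  rw [e1, e2, e3, e4, ← Finset.sum_add_distrib, ← Finset.sum_add_distrib]
  refine Finset.sum_congr rfl fun a _ => ?_
  rw [← Finset.sum_add_distrib, ← Finset.sum_add_distrib]
  refine Finset.sum_congr rfl fun b _ => ?_
  by_cases hab : a = b
  · subst hab; simp [hX, hY]
  · by_cases h1 : b ∈ X a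
    · have h2 : a ∉ Y b := fun h2 => hab (h a b h1 h2)
      simp [h1, h2, hab]
    · by_cases h2 : a ∈ Y b <;> simp [h1, h2, hab]

/-- The admissible pairs for given `Y`, `Y'`. -/
structure Adm (G Y Y' X X' : V → Finset V) : Prop where
  diag : ∀ z, z ∈ X z
  diag' : ∀ z, z ∈ X' z
  cf : Anti (dil G X) (dil G X')
  rng : Anti X (dil G Y')
  rng' : Anti X' (dil G Y)

omit [Fintype V] in
lemma Adm.symm {G Y Y' X X' : V → Finset V} (h : Adm G Y Y' X X') : Adm G Y' Y X' X :=
  ⟨h.diag', h.diag, h.cf.symm, h.rng', h.rng⟩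

/-- boundary size -/
def om (G X : V → Finset V) : ℤ := sz (dil G X) - sz X

omit [Fintype V] in
lemma dil_update (G X : V → Finset V) (z : V) (S : Finset V) :
    dil G (Function.update X z S) = Function.update (dil G X) z (S.biUnion G) := by
  funext a
  by_cases h : a = z
  · subst h; simp [dil]
  · simp [dil, h]

lemma sz_update (X : V → Finset V) (z : V) (S : Finset V) :
    sz (Function.update X z S) = sz X - (X z).card + S.card := by
  unfold sz
  rw [← Finset.add_sum_erase _ _ (Finset.mem_univ z),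
    ← Finset.add_sum_erase _ (fun z => ((X z).card : ℤ)) (Finset.mem_univ z)]
  rw [Finset.sum_congr rfl (g := fun z => ((X z).card : ℤ))]
  · simp; ring
  · intro a ha
    rw [Function.update_of_ne (Finset.ne_of_mem_erase ha)]

lemma om_update (G X : V → Finset V) (z : V) (S : Finset V) :
    om G (Function.update X z S) = om G X - ((dil G X z).card - (X z).card)
      + ((S.biUnion G).card - S.card) := by
  unfold om
  rw [dil_update, sz_update, sz_update]
  ring

section side

variable {G Y Y' X X' : V → Finset V}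

/-- removal matching -/
lemma removal (h : Adm G Y Y' X X')
    (hmin : ∀ X1, Adm G Y Y' X1 X' → om G X ≤ om G X1) (z : V) :
    ∃ μ : V → V, Set.InjOn μ (dil G X z \ G z : Finset V) ∧
      ∀ p ∈ dil G X z \ G z, μ p ∈ X z ∧ p ∈ G (μ p) := by
  obtain ⟨μ, h1, h2⟩ := hall (dil G X z \ G z) (fun p => (X z).filter fun u => p ∈ G u) (by
    intro Q hQ
    set Ξ := Q.biUnion (fun p => (X z).filter fun u => p ∈ G u) with hΞ
    have hΞX : Ξ ⊆ X z := by
      intro u hu
      simp only [hΞ, mem_biUnion, mem_filter] at hu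
      obtain ⟨_, _, h, _⟩ := hu; exact h
    have hzΞ : z ∉ Ξ := by
      intro hu
      simp only [hΞ, mem_biUnion, mem_filter] at hu
      obtain ⟨q, hq, _, h⟩ := hu
      exact (Finset.mem_sdiff.1 (hQ hq)).2 h
    have hsub : ∀ a, Function.update X z (X z \ Ξ) a ⊆ X a := by
      intro a
      by_cases ha : a = z
      · subst ha; simp
      · simp [ha]
    have hadm : Adm G Y Y' (Function.update X z (X z \ Ξ)) X' := by
      refine ⟨?_, h.diag', ?_, ?_, h.rng'⟩
      · intro a
        by_cases ha : a = z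
        · subst ha; simp [h.diag, hzΞ]
        · simp [ha, h.diag]
      · intro a b h1 h2
        refine h.cf a b ?_ h2
        obtain ⟨u, hu, hb⟩ := mem_dil.1 h1
        exact mem_dil.2 ⟨u, hsub a hu, hb⟩
      · intro a b h1 h2
        exact h.rng a b (hsub a h1) h2
    have h3 := hmin _ hadm
    rw [om_update] at h3
    have h4 : (X z \ Ξ).biUnion G ⊆ dil G X z \ Q := by
      intro y hy
      obtain ⟨u, hu, hy⟩ := Finset.mem_biUnion.1 hy
      obtain ⟨hu1, hu2⟩ := Finset.mem_sdiff.1 hu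
      refine Finset.mem_sdiff.2 ⟨mem_dil.2 ⟨u, hu1, hy⟩, fun hq => hu2 ?_⟩
      simp only [hΞ, mem_biUnion, mem_filter]
      exact ⟨y, hq, hu1, hy⟩
    have h5 := Finset.card_le_card h4
    have hQ' : Q ⊆ dil G X z := hQ.trans Finset.sdiff_subset
    have h6 := Finset.card_sdiff_add_card_eq_card hQ'
    have h7 := Finset.card_sdiff_add_card_eq_card hΞX
    omega)
  exact ⟨μ, h1, fun p hp => by simpa using h2 p hp⟩

/-- the cells that can be added freely -/
def free (G Y' X X' : V → Finset V) (z : V) : Finset V :=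
  univ.filter fun u => u ∉ X z ∧ z ∉ dil G Y' u ∧ ∀ y ∈ G u, z ∉ dil G X' y \ G y

/-- addition matching -/
lemma addition (hY' : ∀ z, G z ⊆ Y' z) (h : Adm G Y Y' X X')
    (hmin : ∀ X1, Adm G Y Y' X1 X' → om G X ≤ om G X1) (z : V) :
    ∃ ν : V → V, Set.InjOn ν (free G Y' X X' z) ∧
      ∀ p ∈ free G Y' X X' z, ν p ∈ G p ∧ ν p ∉ dil G X z := by
  obtain ⟨ν, h1, h2⟩ := hall (free G Y' X X' z) (fun p => G p \ dil G X z) (by
    intro Q hQ
    have hQ' : ∀ u ∈ Q, u ∉ X z ∧ z ∉ dil G Y' u ∧ ∀ y ∈ G u, z ∉ dil G X' y \ G y := by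
      intro u hu
      simpa [free] using hQ hu
    have hadm : Adm G Y Y' (Function.update X z (X z ∪ Q)) X' := by
      refine ⟨?_, h.diag', ?_, ?_, h.rng'⟩
      · intro a
        by_cases ha : a = z
        · subst ha; simp [h.diag]
        · simp [ha, h.diag]
      · intro a b h1 h2
        obtain ⟨u, hu, hb⟩ := mem_dil.1 h1
        by_cases ha : a = z
        · subst ha
          simp only [Function.update_self, mem_union] at hu
          rcases hu with hu | hu
          · exact h.cf a b (mem_dil.2 ⟨u, hu, hb⟩) h2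
          · exfalso
            obtain ⟨_, h4, h5⟩ := hQ' u hu
            by_cases h6 : a ∈ G b
            · exact h4 (mem_dil.2 ⟨b, hY' u hb, h6⟩)
            · exact h5 b hb (Finset.mem_sdiff.2 ⟨h2, h6⟩)
        · rw [Function.update_of_ne ha] at hu
          exact h.cf a b (mem_dil.2 ⟨u, hu, hb⟩) h2
      · intro a b h1 h2
        by_cases ha : a = z
        · subst ha
          simp only [Function.update_self, mem_union] at h1
          rcases h1 with hu | hu
          · exact h.rng a b hu h2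
          · exact absurd h2 (hQ' b hu).2.1
        · rw [Function.update_of_ne ha] at h1
          exact h.rng a b h1 h2
    have h3 := hmin _ hadm
    rw [om_update] at h3
    have h4 : (X z ∪ Q).biUnion G ⊆ dil G X z ∪ Q.biUnion (fun p => G p \ dil G X z) := by
      intro y hy
      obtain ⟨u, hu, hy⟩ := Finset.mem_biUnion.1 hy
      by_cases h5 : y ∈ dil G X z
      · exact Finset.mem_union_left _ h5
      · rcases Finset.mem_union.1 hu with hu | hu
        · exact absurd (mem_dil.2 ⟨u, hu, hy⟩) h5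
        · exact Finset.mem_union_right _
            (Finset.mem_biUnion.2 ⟨u, hu, Finset.mem_sdiff.2 ⟨hy, h5⟩⟩)
    have h5 := (Finset.card_le_card h4).trans (Finset.card_union_le _ _)
    have h6 : (X z ∪ Q).card = (X z).card + Q.card :=
      Finset.card_union_of_disjoint (Finset.disjoint_right.2 fun u hu => (hQ' u hu).1)
    omega)
  exact ⟨ν, h1, fun p hp => by simpa using h2 p hp⟩

/-- One side of the rank count. -/
lemma side (hG : ∀ z, z ∈ G z) (hY' : ∀ z, G z ⊆ Y' z)
    (h : Adm G Y Y' X X')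
    (hmin : ∀ X1, Adm G Y Y' X1 X' → om G X ≤ om G X1)
    (hmin' : ∀ X1, Adm G Y' Y X1 X → om G X' ≤ om G X1) :
    ∃ S : Finset (V × V),
      (S.card : ℤ) = (gap X (dil G Y')).card + sz (dil G X) - sz G ∧
      (∀ a b, (a, b) ∈ S → a ∉ dil G Y' b) ∧
      ∀ ξ : V → V → KK V, (∀ a b, ξ a b ≠ 0 → (a, b) ∈ S) →
        (∀ x u, (x, u) ∈ gap Y Y' → ∑ v, gen G x v * ξ v u = 0) →
        (∀ v y, (v, y) ∈ gap G G → ∑ u, ξ v u * gen G u y = 0) → ∀ a b, ξ a b = 0 := by
  classical
  choose μ hμ1 hμ2 using removal h hmin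
  choose μ' hμ'1 hμ'2 using removal h.symm hmin'
  choose ν hν1 hν2 using addition hY' h hmin
  have hGX : ∀ z, G z ⊆ dil G X z := fun z y hy => mem_dil.2 ⟨z, h.diag z, hy⟩
  have hGX' : ∀ z, G z ⊆ dil G X' z := fun z y hy => mem_dil.2 ⟨z, h.diag' z, hy⟩
  set S2 : Finset (V × V) := univ.biUnion fun z =>
    ((dil G X z \ G z).image (μ z)).image fun u => (z, u) with hS2
  have memS2 : ∀ a b, (a, b) ∈ S2 ↔ ∃ p ∈ dil G X a \ G a, μ a p = b := by
    intro a b
    simp only [hS2, mem_biUnion, mem_univ, true_and, mem_image, Prod.mk.injEq]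
    constructor
    · rintro ⟨z, u, ⟨p, hp, rfl⟩, rfl, rfl⟩
      exact ⟨p, hp, rfl⟩
    · rintro ⟨p, hp, rfl⟩
      exact ⟨a, _, ⟨p, hp, rfl⟩, rfl, rfl⟩
  have hsupp : ∀ a b, (a, b) ∈ gap X (dil G Y') ∪ S2 → a ∉ dil G Y' b := by
    intro a b hab
    rcases Finset.mem_union.1 hab with hab | hab
    · exact (mem_gap.1 hab).2
    · obtain ⟨p, hp, rfl⟩ := (memS2 a b).1 hab
      intro h1
      have h2 := h.rng a _ (hμ2 a p hp).1 h1
      have h3 := (hμ2 a p hp).2
      rw [← h2] at h3
      exact (Finset.mem_sdiff.1 hp).2 h3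
  refine ⟨gap X (dil G Y') ∪ S2, ?_, hsupp, ?_⟩
  · rw [Finset.card_union_of_disjoint]
    · have : (S2.card : ℤ) = sz (dil G X) - sz G := by
        rw [hS2, Finset.card_biUnion]
        · push_cast
          unfold sz
          rw [← Finset.sum_sub_distrib]
          refine Finset.sum_congr rfl fun z _ => ?_
          rw [Finset.card_image_of_injective _ (fun u v huv => (Prod.mk.inj huv).2),
            Finset.card_image_of_injOn (hμ1 z)]
          have := Finset.card_sdiff_add_card_eq_card (hGX z)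
          omega
        · intro a _ b _ hab
          simp only [Function.onFun]
          rw [Finset.disjoint_left]
          intro c h1 h2
          obtain ⟨u, _, rfl⟩ := Finset.mem_image.1 h1
          obtain ⟨v, _, h3⟩ := Finset.mem_image.1 h2
          exact hab (Prod.mk.inj h3).1.symm
      push_cast
      rw [this]; ring
    · rw [Finset.disjoint_left]
      rintro ⟨a, b⟩ h1 h2
      obtain ⟨p, hp, rfl⟩ := (memS2 a b).1 h2
      exact (mem_gap.1 h1).1 (hμ2 a p hp).1
  intro ξ hξ hJ hN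
  have hξ' : ∀ a b, ξ a b ≠ 0 → a ∉ dil G Y' b := fun a b hab => hsupp a b (hξ a b hab)
  -- step 1
  have step1 : ∀ y y', y' ∈ G y → ∀ q ∈ dil G X' y' \ G y', ξ q y = 0 := by
    intro y y' hyy'
    refine gen_mulVec G (dil G X' y' \ G y') (μ' y') id (hμ'1 y') (Set.injOn_id _)
      (fun p hp => (hμ'2 y' p hp).2) (fun q => ξ q y) ?_
    intro p hp
    set x := μ' y' p with hx
    have hxX : x ∈ X' y' := (hμ'2 y' p hp).1
    have hxne : x ≠ y' := by
      intro e
      have := (hμ'2 y' p hp).2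
      rw [← hx, e] at this
      exact (Finset.mem_sdiff.1 hp).2 this
    have h0 : ∑ v, gen G x v * ξ v y = 0 := by
      by_cases h1 : x ∈ Y' y
      · refine Finset.sum_eq_zero fun v _ => ?_
        by_contra hne
        exact hξ' v y (right_ne_zero_of_mul hne)
          (mem_dil.2 ⟨x, h1, gen_ne (left_ne_zero_of_mul hne)⟩)
      · refine hJ x y (mem_gap.2 ⟨fun h2 => ?_, h1⟩)
        exact hxne (h.rng' y' x hxX (mem_dil.2 ⟨y, h2, hyy'⟩)).symm
    rw [← h0]
    refine Finset.sum_subset (Finset.subset_univ _) fun v _ hv => ?_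
    by_contra hne
    have h1 : v ∈ G x := gen_ne (left_ne_zero_of_mul hne)
    have h2 := hξ' v y (right_ne_zero_of_mul hne)
    refine hv (Finset.mem_sdiff.2 ⟨mem_dil.2 ⟨x, hxX, h1⟩, fun h3 => h2 ?_⟩)
    exact mem_dil.2 ⟨y', hY' y hyy', h3⟩
  -- step 2
  have step2 : ∀ z u, ξ z u ≠ 0 → u ∈ X z ∨ u ∈ free G Y' X X' z := by
    intro z u hne
    by_cases h1 : u ∈ X z
    · exact Or.inl h1
    · right
      simp only [free, mem_filter, mem_univ, true_and]
      exact ⟨h1, hξ' z u hne, fun y hy hz => hne (step1 u y hy z hz)⟩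
  have step3 : ∀ z, ∀ u ∈ free G Y' X X' z, ξ z u = 0 := by
    intro z
    refine gen_vecMul G (free G Y' X X' z) id (ν z) (Set.injOn_id _) (hν1 z)
      (fun p hp => (hν2 z p hp).1) (fun q => ξ z q) ?_
    intro p hp
    have hp' : z ∉ dil G Y' p := by
      simp only [free, mem_filter, mem_univ, true_and] at hp
      exact hp.2.1
    have h0 := hN z (ν z p) (mem_gap.2 ⟨fun h1 => (hν2 z p hp).2 (hGX z h1),
      fun h1 => hp' (mem_dil.2 ⟨_, hY' p (hν2 z p hp).1, h1⟩)⟩)
    rw [← h0]
    refine Finset.sum_subset (Finset.subset_univ _) fun v _ hv => ?_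
    by_contra hne
    rcases step2 z v (left_ne_zero_of_mul hne) with h1 | h1
    · exact (hν2 z p hp).2 (mem_dil.2 ⟨v, h1, gen_ne (right_ne_zero_of_mul hne)⟩)
    · exact hv h1
  have step4 : ∀ z u, ξ z u ≠ 0 → ∃ p ∈ dil G X z \ G z, μ z p = u := by
    intro z u hne
    rcases Finset.mem_union.1 (hξ z u hne) with h1 | h1
    · rcases step2 z u hne with h2 | h2
      · exact absurd h2 (mem_gap.1 h1).1
      · exact absurd (step3 z u h2) hne
    · exact (memS2 z u).1 h1
  intro z u
  by_contra hne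
  obtain ⟨p, hp, rfl⟩ := step4 z u hne
  refine hne (gen_vecMul G (dil G X z \ G z) (μ z) id (hμ1 z) (Set.injOn_id _)
      (fun p hp => (hμ2 z p hp).2) (fun q => ξ z (μ z q)) ?_ p hp)
  intro r hr
  have hr' := Finset.mem_sdiff.1 hr
  have h0 := hN z r (mem_gap.2 ⟨hr'.2, fun h1 => hr'.2 (by
    have := h.cf z r hr'.1 (hGX' r h1)
    rw [← this]; exact hG z)⟩)
  simp only [id]
  rw [← h0, ← Finset.sum_image (f := fun v => ξ z v * gen G v r) (hμ1 z)]
  refine Finset.sum_subset (Finset.subset_univ _) fun v _ hv => ?_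
  by_contra hne'
  obtain ⟨q, hq, rfl⟩ := step4 z v (left_ne_zero_of_mul hne')
  exact hv (Finset.mem_image_of_mem _ hq)

end side

/-- The key inequality. -/
lemma key {G Y Y' : V → Finset V} (hG : ∀ z, z ∈ G z) (hGG : Anti G G)
    (hY : ∀ z, G z ⊆ Y z) (hY' : ∀ z, G z ⊆ Y' z) (hYY : Anti Y Y') :
    ∃ X X' : V → Finset V, (∀ z, z ∈ X z) ∧ (∀ z, z ∈ X' z) ∧ Anti (dil G X) (dil G X') ∧
      om G X + om G X' ≤ om G Y + om G Y' := by
  classical
  have hne : {p : (V → Finset V) × (V → Finset V) | Adm G Y Y' p.1 p.2}.Nonempty := by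
    refine ⟨(fun z => {z}, fun z => {z}), ?_, ?_, ?_, ?_, ?_⟩
    · simp
    · simp
    · intro a b h1 h2
      simp only [dil, singleton_biUnion] at h1 h2
      exact hGG a b h1 h2
    · intro a b h1 _
      exact (Finset.mem_singleton.1 h1).symm
    · intro a b h1 _
      exact (Finset.mem_singleton.1 h1).symm
  obtain ⟨⟨X, X'⟩, h, hmin⟩ := Set.exists_min_image _ (fun p => om G p.1 + om G p.2)
    (Set.toFinite _) hne
  have h : Adm G Y Y' X X' := h
  have hm1 : ∀ X1, Adm G Y Y' X1 X' → om G X ≤ om G X1 := fun X1 h1 => by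
    have := hmin (X1, X') h1
    simp only at this
    linarith
  have hm2 : ∀ X1, Adm G Y' Y X1 X → om G X' ≤ om G X1 := fun X1 h1 => by
    have := hmin (X, X1) h1.symm
    simp only at this
    linarith
  obtain ⟨S, hS1, hS2, hS3⟩ := side hG hY' h hm1 hm2
  obtain ⟨S', hS1', hS2', hS3'⟩ := side hG hY h.symm hm2 hm1
  have hc := rank_count (gen G) S S' (gap Y Y') (gap G G) hS3
    (fun ξ h1 h2 h3 => hS3' ξ h1 (fun x u hxu => h2 x u (mem_gap.2 (mem_gap.1 hxu).symm))
      (fun v y hvy => h3 v y (mem_gap.2 (mem_gap.1 hvy).symm)))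
    (fun v u y x h1 h2 h3 h4 => by
      have h3 := gen_ne h3
      have h4 := gen_ne h4
      have h5 := hS2 v u h1
      have h6 := hS2' y x h2
      refine ⟨mem_gap.2 ⟨fun h7 => h6 (mem_dil.2 ⟨u, h7, h4⟩),
        fun h7 => h5 (mem_dil.2 ⟨x, h7, h3⟩)⟩, mem_gap.2 ⟨fun h7 => ?_, fun h7 => ?_⟩⟩
      · exact h6 (mem_dil.2 ⟨v, hY x h3, h7⟩)
      · exact h5 (mem_dil.2 ⟨y, hY' u h4, h7⟩))
  have hd : ∀ z, z ∈ dil G Y z := fun z => mem_dil.2 ⟨z, hY z (hG z), hG z⟩
  have hd' : ∀ z, z ∈ dil G Y' z := fun z => mem_dil.2 ⟨z, hY' z (hG z), hG z⟩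
  have c1 := card_gap X (dil G Y') h.diag hd' h.rng
  have c2 := card_gap X' (dil G Y) h.diag' hd h.rng'
  have c3 := card_gap Y Y' (fun z => hY z (hG z)) (fun z => hY' z (hG z)) hYY
  have c4 := card_gap G G hG hG hGG
  refine ⟨X, X', h.diag, h.diag', h.cf, ?_⟩
  have hc' : (S.card : ℤ) + S'.card ≤ (gap Y Y').card + (gap G G).card := by exact_mod_cast hc
  unfold om
  linarith

end Vale.Agent.P038
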