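import Vale.Agent.P038.Key

/-! The subset lemma for an arc-minimal counterexample, and the theorem. -/

namespace Vale.Agent.P038

open Finset

variable {V : Type*} [Fintype V] [DecidableEq V]

/-- In an arc-minimal counterexample every set with a nonempty boundary has a second
neighbourhood smaller than its first. -/
lemma subset_lemma {G : V → Finset V} (hG : ∀ z, z ∈ G z) (hGG : Anti G G)
    (hce : ∀ v, ((G v).biUnion G).card + 1 < 2 * (G v).card)
    (ih : ∀ G' : V → Finset V, sz G' < sz G → (∀ z, z ∈ G' z) → Anti G' G' →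
      ∃ v, 2 * (G' v).card ≤ ((G' v).biUnion G').card + 1)
    (K : Finset V) (hK : K.biUnion G ≠ K) :
    ((K.biUnion G).biUnion G).card + K.card < 2 * (K.biUnion G).card := by
  classical
  set B := K.biUnion G \ K with hB
  have hKs : ∀ S : Finset V, S ⊆ S.biUnion G := fun S u hu =>
    Finset.mem_biUnion.2 ⟨u, hu, hG u⟩
  let φ : Finset V → ℤ := fun T => ((T.biUnion G \ K).card : ℤ) - 2 * T.card
  have main : ∀ T ⊆ B, T ≠ B → (∀ T' ⊆ B, φ T ≤ φ T') → False := by
    intro T hT hTB hmin
    let G' : V → Finset V := fun u => if u ∈ K then G u \ (B \ T) else G u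
    have hsub : ∀ u, G' u ⊆ G u := by
      intro u
      simp only [G']
      split_ifs
      · exact Finset.sdiff_subset
      · exact Finset.Subset.refl _
    obtain ⟨b, hbB, hbT⟩ : ∃ b ∈ B, b ∉ T := by
      by_contra hh
      push Not at hh
      exact hTB (Finset.Subset.antisymm hT hh)
    obtain ⟨v, hv⟩ := ih G' (by
        obtain ⟨u, hu, hub⟩ := Finset.mem_biUnion.1 (Finset.mem_sdiff.1 hbB).1
        refine Finset.sum_lt_sum (fun z _ => ?_) ⟨u, Finset.mem_univ _, ?_⟩
        · exact_mod_cast Finset.card_le_card (hsub z)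
        · have : G' u ⊂ G u := by
            refine ⟨hsub u, fun hh => ?_⟩
            have := hh hub
            simp only [G', if_pos hu, mem_sdiff] at this
            exact this.2 ⟨hbB, hbT⟩
          exact_mod_cast Finset.card_lt_card this)
      (by
        intro z
        simp only [G']
        split_ifs with hz
        · exact Finset.mem_sdiff.2 ⟨hG z, fun h =>
            (Finset.mem_sdiff.1 (Finset.mem_sdiff.1 h).1).2 hz⟩
        · exact hG z)
      (fun a b h1 h2 => hGG a b (hsub a h1) (hsub b h2))
    have h2 : (G' v).biUnion G' ⊆ (G v).biUnion G := by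
      intro y hy
      obtain ⟨u, hu, hy⟩ := Finset.mem_biUnion.1 hy
      exact Finset.mem_biUnion.2 ⟨u, hsub v hu, hsub u hy⟩
    have h3 := hce v
    by_cases hvK : v ∈ K
    · set Tv := G v ∩ B with hTv
      set L := Tv.biUnion G \ (K ∪ T.biUnion G) with hL
      have e1 : (G' v).card + (Tv \ T).card = (G v).card := by
        have : G' v = G v \ (Tv \ T) := by
          ext y
          simp only [G', if_pos hvK, hTv, mem_sdiff, mem_inter]
          tauto
        rw [this]
        exact Finset.card_sdiff_add_card_eq_card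
          (Finset.sdiff_subset.trans Finset.inter_subset_left)
      have e2 : (G' v).biUnion G' ⊆ (G v).biUnion G \ L := by
        intro y hy
        refine Finset.mem_sdiff.2 ⟨h2 hy, fun hyL => (Finset.mem_sdiff.1 hyL).2 ?_⟩
        obtain ⟨u, hu, hy⟩ := Finset.mem_biUnion.1 hy
        have key : ∀ a ∈ K, ∀ c ∈ G' a, c ∈ K ∨ c ∈ T := by
          intro a ha c hc
          simp only [G', if_pos ha, mem_sdiff, hB, mem_biUnion] at hc
          by_contra hh
          push Not at hh
          exact hc.2 ⟨⟨⟨a, ha, hc.1⟩, hh.1⟩, hh.2⟩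
        rcases key v hvK u hu with h4 | h4
        · rcases key u h4 y hy with h5 | h5
          · exact Finset.mem_union_left _ h5
          · exact Finset.mem_union_right _ (hKs T h5)
        · exact Finset.mem_union_right _ (Finset.mem_biUnion.2 ⟨u, h4, hsub u hy⟩)
      have e3 : L ⊆ (G v).biUnion G := by
        intro y hy
        obtain ⟨u, hu, hy⟩ := Finset.mem_biUnion.1 (Finset.mem_sdiff.1 hy).1
        exact Finset.mem_biUnion.2 ⟨u, (Finset.mem_inter.1 hu).1, hy⟩
      have e4 := Finset.card_le_card e2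
      have e5 := Finset.card_sdiff_add_card_eq_card e3
      have e6 := hmin (T ∪ Tv) (Finset.union_subset hT Finset.inter_subset_right)
      have e7 : (T ∪ Tv).biUnion G \ K ⊆ (T.biUnion G \ K) ∪ L := by
        intro y hy
        obtain ⟨hy1, hy2⟩ := Finset.mem_sdiff.1 hy
        by_cases h4 : y ∈ T.biUnion G
        · exact Finset.mem_union_left _ (Finset.mem_sdiff.2 ⟨h4, hy2⟩)
        · obtain ⟨u, hu, hy3⟩ := Finset.mem_biUnion.1 hy1
          rcases Finset.mem_union.1 hu with hu | hu
          · exact absurd (Finset.mem_biUnion.2 ⟨u, hu, hy3⟩) h4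
          · refine Finset.mem_union_right _ (Finset.mem_sdiff.2
              ⟨Finset.mem_biUnion.2 ⟨u, hu, hy3⟩, ?_⟩)
            rw [Finset.mem_union]
            tauto
      have e8 := (Finset.card_le_card e7).trans (Finset.card_union_le _ _)
      have e9 : (T ∪ Tv).card = T.card + (Tv \ T).card := by
        rw [← Finset.card_union_of_disjoint Finset.disjoint_sdiff, Finset.union_sdiff_self_eq_union]
      simp only [φ] at e6
      omega
    · have e1 : G' v = G v := by simp [G', hvK]
      have e4 := Finset.card_le_card h2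
      rw [e1] at hv
      rw [e1] at e4
      omega
  have hBne : B ≠ ∅ := by
    intro h
    exact hK (Finset.Subset.antisymm (Finset.sdiff_eq_empty_iff_subset.1 h) (hKs K))
  have hneg : φ B < 0 := by
    by_contra hh
    push Not at hh
    obtain ⟨T, hT, hmin⟩ := Finset.exists_min_image B.powerset φ ⟨∅, by simp⟩
    have hmin' : ∀ T' ⊆ B, φ T ≤ φ T' := fun T' h => hmin T' (Finset.mem_powerset.2 h)
    by_cases hTB : T = B
    · refine main ∅ (Finset.empty_subset _) hBne.symm fun T' h => ?_
      have := hmin' T' h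
      have h0 : φ ∅ = 0 := by simp [φ]
      rw [hTB] at this
      linarith
    · exact main T (Finset.mem_powerset.1 hT) hTB hmin'
  have e1 : (K.biUnion G).biUnion G ⊆ K ∪ (B.biUnion G \ K) := by
    intro y hy
    by_cases hyK : y ∈ K
    · exact Finset.mem_union_left _ hyK
    · refine Finset.mem_union_right _ (Finset.mem_sdiff.2 ⟨?_, hyK⟩)
      obtain ⟨u, hu, hy⟩ := Finset.mem_biUnion.1 hy
      by_cases huK : u ∈ K
      · exact hKs B (Finset.mem_sdiff.2 ⟨Finset.mem_biUnion.2 ⟨u, huK, hy⟩, hyK⟩)
      · exact Finset.mem_biUnion.2 ⟨u, Finset.mem_sdiff.2 ⟨hu, huK⟩, hy⟩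
  have e2 := (Finset.card_le_card e1).trans (Finset.card_union_le _ _)
  have e3 : B.card + K.card = (K.biUnion G).card := Finset.card_sdiff_add_card_eq_card (hKs K)
  simp only [φ] at hneg
  omega

lemma exists_open [Nonempty V] {G : V → Finset V} (hG : ∀ z, z ∈ G z)
    (hout : ∀ v, ∃ u ∈ G v, u ≠ v) {X : V → Finset V} (hX : ∀ z, z ∈ X z)
    (hXG : Anti (dil G X) G) : ∃ z, (X z).biUnion G ≠ X z := by
  classical
  by_contra hh
  push Not at hh
  let r : V → V → Prop := fun a b => b ∈ G a
  let reach : V → Finset V := fun a => univ.filter fun b => Relation.ReflTransGen r a b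
  obtain ⟨z, _, hz⟩ := Finset.exists_min_image univ (fun a => (reach a).card) Finset.univ_nonempty
  obtain ⟨u, hu, huz⟩ := hout z
  have h1 : reach u ⊆ reach z := by
    intro b hb
    simp only [reach, mem_filter, mem_univ, true_and] at hb ⊢
    exact Relation.ReflTransGen.head hu hb
  have h2 := Finset.eq_of_subset_of_card_le h1 (hz u (Finset.mem_univ _))
  have h3 : Relation.ReflTransGen r u z := by
    have : z ∈ reach u := by
      rw [h2]; simp only [reach, mem_filter, mem_univ, true_and]; exact Relation.ReflTransGen.refl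
    simpa [reach] using this
  have h4 : ∀ b, Relation.ReflTransGen r u b → b ∈ X u := by
    intro b hb
    induction hb with
    | refl => exact hX u
    | tail _ hbc ih =>
      rw [← hh u]
      exact Finset.mem_biUnion.2 ⟨_, ih, hbc⟩
  exact huz (hXG u z (mem_dil.2 ⟨z, h4 z h3, hG z⟩) hu)

theorem seymour [Nonempty V] (G : V → Finset V) (hG : ∀ z, z ∈ G z) (hGG : Anti G G) :
    ∃ v, 2 * (G v).card ≤ ((G v).biUnion G).card + 1 := by
  classical
  induction hn : (sz G).toNat using Nat.strong_induction_on generalizing G with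
  | _ n ih =>
  by_contra hce
  push Not at hce
  have hsz : ∀ G' : V → Finset V, 0 ≤ sz G' := fun G' =>
    Finset.sum_nonneg fun _ _ => Int.natCast_nonneg _
  have hL := subset_lemma hG hGG hce (fun G' h1 h2 h3 =>
    ih _ (by have := hsz G'; omega) G' h2 h3 rfl)
  have hKs : ∀ S : Finset V, S ⊆ S.biUnion G := fun S u hu =>
    Finset.mem_biUnion.2 ⟨u, hu, hG u⟩
  have hL' : ∀ K : Finset V,
      ((K.biUnion G).biUnion G).card + K.card ≤ 2 * (K.biUnion G).card := by
    intro K
    by_cases hK : K.biUnion G = K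
    · rw [hK, hK]; omega
    · exact (hL K hK).le
  have hout : ∀ v, ∃ u ∈ G v, u ≠ v := by
    intro v
    by_contra hh
    push Not at hh
    have h1 : G v ⊆ {v} := fun u hu => Finset.mem_singleton.2 (hh u hu)
    have h2 := Finset.card_le_card h1
    have h3 := Finset.card_pos.2 ⟨v, hKs _ (hG v)⟩
    have h4 := hce v
    rw [Finset.card_singleton] at h2
    omega
  have hne : {p : (V → Finset V) × (V → Finset V) |
      (∀ z, z ∈ p.1 z) ∧ (∀ z, z ∈ p.2 z) ∧ Anti (dil G p.1) (dil G p.2)}.Nonempty := by
    refine ⟨(fun z => {z}, fun z => {z}), ?_, ?_, ?_⟩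
    · simp
    · simp
    · intro a b h1 h2
      simp only [dil, singleton_biUnion] at h1 h2
      exact hGG a b h1 h2
  obtain ⟨⟨X, X'⟩, ⟨hX, hX', hcf⟩, hmin⟩ := Set.exists_min_image _
    (fun p => om G p.1 + om G p.2) (Set.toFinite _) hne
  have hGX : ∀ z, G z ⊆ dil G X z := fun z y hy => mem_dil.2 ⟨z, hX z, hy⟩
  have hGX' : ∀ z, G z ⊆ dil G X' z := fun z y hy => mem_dil.2 ⟨z, hX' z, hy⟩
  obtain ⟨X1, X1', h1, h2, h3, h4⟩ := key hG hGG hGX hGX' hcf
  have h5 := hmin (X1, X1') ⟨h1, h2, h3⟩
  obtain ⟨z, hz⟩ := exists_open hG hout hX (fun a b h1 h2 => hcf a b h1 (hGX' b h2))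
  have h6 : om G (dil G X) < om G X := by
    unfold om sz
    rw [← Finset.sum_sub_distrib, ← Finset.sum_sub_distrib]
    refine Finset.sum_lt_sum (fun a _ => ?_) ⟨z, Finset.mem_univ _, ?_⟩
    · have := hL' (X a)
      simp only [dil]
      omega
    · have := hL (X z) hz
      simp only [dil]
      omega
  have h7 : om G (dil G X') ≤ om G X' := by
    unfold om sz
    rw [← Finset.sum_sub_distrib, ← Finset.sum_sub_distrib]
    refine Finset.sum_le_sum (fun a _ => ?_)
    have := hL' (X' a)
    simp only [dil]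
    omega
  simp only at h5 h4
  linarith

end Vale.Agent.P038
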